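import Vale.Agent.Lib.P162.Thorp

namespace Vale.Agent.Results.P162.ThorpQuadraticBound

open Vale.Agent.Lib.P162

/-- For a deck of `n = 2 * 2 ^ d = 2 ^ (d + 1)` cards, the Thorp shuffle is within total variation
distance `1 / 4` of uniform after `tmix (2 ^ d)` shuffles, and `tmix (2 ^ d)` is at most
`C * (d + 1) ^ 2`, that is, `C * (log₂ n) ^ 2`, for an absolute constant `C`. -/
theorem result : ∃ C : ℝ, ∀ d : ℕ,
    tv (convPow (thorpLaw (2 ^ d)) (tmix (2 ^ d))) (unifLaw (2 * 2 ^ d)) ≤ 1 / 4 ∧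
      (tmix (2 ^ d) : ℝ) ≤ C * ((d : ℝ) + 1) ^ 2 :=
  thorp_main

end Vale.Agent.Results.P162.ThorpQuadraticBound
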